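import Mathlib

/-!
# Linear ODEs in Banach spaces: global solutions by the Dyson series

Existence on the whole line with continuous dependence on a parameter, uniqueness on compact
intervals, smoothness of solutions of smooth equations.
-/

set_option autoImplicit false

open scoped ContDiff Topology Nat NNReal
open Set Filter MeasureTheory

noncomputable section

namespace Crest.Agent.Lib.LinODE

variable {E : Type*} [NormedAddCommGroup E] [NormedSpace ℝ E]
  {Y : Type*} [TopologicalSpace Y]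

/-- terms of the Dyson series -/
def dy (A : Y → ℝ → E →L[ℝ] E) (t₀ : ℝ) (x₀ : E) : ℕ → Y → ℝ → E
  | 0 => fun _ _ => x₀
  | n + 1 => fun y t => ∫ s in t₀..t, A y s (dy A t₀ x₀ n y s)

variable {A : Y → ℝ → E →L[ℝ] E} {t₀ : ℝ} {x₀ : E}

theorem dy_cont (hA : Continuous fun z : Y × ℝ => A z.1 z.2) (n : ℕ) :
    Continuous fun z : Y × ℝ => dy A t₀ x₀ n z.1 z.2 := by
  induction n with
  | zero => exact continuous_const
  | succ n ih =>
    exact intervalIntegral.continuous_parametric_primitive_of_continuous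
      (f := fun y s => A y s (dy A t₀ x₀ n y s)) (hA.clm_apply ih)

omit [TopologicalSpace Y] in
theorem dy_bound {y : Y} {T K : ℝ} (hK0 : 0 ≤ K) (hK : ∀ s, |s - t₀| ≤ T → ‖A y s‖ ≤ K) (n : ℕ) :
    ∀ t, |t - t₀| ≤ T → ‖dy A t₀ x₀ n y t‖ ≤ ‖x₀‖ * (K ^ n * |t - t₀| ^ n / n !) := by
  induction n with
  | zero => intro t _; simp [dy]
  | succ n ih =>
    intro t ht
    have hsub : ∀ s ∈ uIoc t₀ t, |s - t₀| ≤ T := fun s hs =>
      (abs_sub_left_of_mem_uIcc (uIoc_subset_uIcc hs)).trans ht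
    have hint : IntegrableOn (fun s => (K * (‖x₀‖ * (K ^ n / n !))) * |s - t₀| ^ n) (uIoc t₀ t) := by
      have : Continuous fun s => (K * (‖x₀‖ * (K ^ n / n !))) * |s - t₀| ^ n := by fun_prop
      exact (this.intervalIntegrable t₀ t).def'
    have h1 : ‖dy A t₀ x₀ (n + 1) y t‖
        ≤ ∫ s in uIoc t₀ t, (K * (‖x₀‖ * (K ^ n / n !))) * |s - t₀| ^ n := by
      show ‖∫ s in t₀..t, A y s (dy A t₀ x₀ n y s)‖ ≤ _
      rw [intervalIntegral.norm_integral_eq_norm_integral_uIoc]
      refine norm_integral_le_of_norm_le hint ?_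
      refine (ae_restrict_iff' measurableSet_uIoc).2 (Eventually.of_forall fun s hs => ?_)
      calc ‖A y s (dy A t₀ x₀ n y s)‖ ≤ ‖A y s‖ * ‖dy A t₀ x₀ n y s‖ := (A y s).le_opNorm _
        _ ≤ K * (‖x₀‖ * (K ^ n * |s - t₀| ^ n / n !)) :=
          mul_le_mul (hK s (hsub s hs)) (ih s (hsub s hs)) (norm_nonneg _) hK0
        _ = _ := by ring
    rw [integral_const_mul, integral_pow_abs_sub_uIoc] at h1
    refine h1.trans_eq ?_
    rw [Nat.factorial_succ]
    push_cast
    field_simp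
    ring

theorem summable_bd (c K T : ℝ) : Summable fun n : ℕ => c * (K ^ n * T ^ n / n !) := by
  simp_rw [← mul_pow]
  exact (Real.summable_pow_div_factorial (K * T)).mul_left c

omit [TopologicalSpace Y] in
theorem dy_bound' {y : Y} {T K : ℝ} (hK0 : 0 ≤ K) (hK : ∀ s, |s - t₀| ≤ T → ‖A y s‖ ≤ K) (n : ℕ)
    {t : ℝ} (ht : |t - t₀| ≤ T) : ‖dy A t₀ x₀ n y t‖ ≤ ‖x₀‖ * (K ^ n * T ^ n / n !) := by
  refine (dy_bound hK0 hK n t ht).trans ?_
  gcongr

theorem exists_bound (hA : Continuous fun z : Y × ℝ => A z.1 z.2) (y₀ : Y) (t₀ T : ℝ) :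
    ∃ K, 0 ≤ K ∧ ∀ᶠ y in 𝓝 y₀, ∀ s, |s - t₀| ≤ T → ‖A y s‖ ≤ K := by
  have hc : IsCompact (Metric.closedBall t₀ T) := isCompact_closedBall _ _
  obtain ⟨K, hK⟩ := hc.exists_bound_of_continuousOn (f := fun s => A y₀ s)
    (hA.comp (continuous_const.prodMk continuous_id)).continuousOn
  refine ⟨|K| + 1, by positivity, ?_⟩
  have : ∀ᶠ y in 𝓝 y₀, ∀ s ∈ Metric.closedBall t₀ T, ‖A y s‖ < |K| + 1 := by
    refine hc.eventually_forall_of_forall_eventually fun s hs => ?_
    exact (hA.norm.tendsto (y₀, s)).eventually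
      (gt_mem_nhds (by linarith [hK s hs, le_abs_self K]))
  filter_upwards [this] with y hy s hs
  exact (hy s (by rwa [Metric.mem_closedBall, Real.dist_eq])).le

/-- Global solutions of a linear equation, continuous in the parameter. -/
theorem exists_sol [CompleteSpace E] (A : Y → ℝ → E →L[ℝ] E)
    (hA : Continuous fun z : Y × ℝ => A z.1 z.2) (t₀ : ℝ) (x₀ : E) :
    ∃ x : Y → ℝ → E, (∀ y, x y t₀ = x₀) ∧ (∀ y t, HasDerivAt (x y) (A y t (x y t)) t) ∧
      ∀ t, Continuous fun y => x y t := by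
  have hsum : ∀ y t, Summable fun n => dy A t₀ x₀ n y t := by
    intro y t
    obtain ⟨K, hK0, hK⟩ := exists_bound hA y t₀ |t - t₀|
    exact .of_norm_bounded (summable_bd ‖x₀‖ K |t - t₀|)
      fun n => dy_bound' hK0 hK.self_of_nhds n le_rfl
  have hx : ∀ y t, ∑' n, dy A t₀ x₀ n y t = x₀ + ∑' n, dy A t₀ x₀ (n + 1) y t :=
    fun y t => (hsum y t).tsum_eq_zero_add
  refine ⟨fun y t => ∑' n, dy A t₀ x₀ n y t, fun y => ?_, fun y t => ?_, fun t => ?_⟩
  · show ∑' n, dy A t₀ x₀ n y t₀ = x₀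
    rw [hx]; simp [dy]
  · obtain ⟨K, hK0, hK⟩ := exists_bound hA y t₀ (|t - t₀| + 1)
    replace hK := hK.self_of_nhds
    have hmem : ∀ s ∈ Metric.ball t₀ (|t - t₀| + 1), |s - t₀| ≤ |t - t₀| + 1 := fun s hs => by
      rw [Metric.mem_ball, Real.dist_eq] at hs; exact hs.le
    have hd : HasDerivAt (fun s => ∑' n, dy A t₀ x₀ (n + 1) y s)
        (∑' n, A y t (dy A t₀ x₀ n y t)) t := by
      refine hasDerivAt_tsum_of_isPreconnected
        (u := fun n => K * (‖x₀‖ * (K ^ n * (|t - t₀| + 1) ^ n / n !)))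
        (g := fun n s => dy A t₀ x₀ (n + 1) y s) (g' := fun n s => A y s (dy A t₀ x₀ n y s))
        ((summable_bd _ _ _).mul_left K) Metric.isOpen_ball
        (convex_ball t₀ (|t - t₀| + 1)).isPreconnected (fun n s _ => ?_) (fun n s hs => ?_)
        (y₀ := t) (by simp [Real.dist_eq]) ((summable_nat_add_iff 1).2 (hsum y t))
        (by simp [Real.dist_eq])
      · have hc : Continuous fun s => A y s (dy A t₀ x₀ n y s) :=
          (hA.clm_apply (dy_cont hA n)).comp (continuous_const.prodMk continuous_id)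
        exact (hc.integral_hasStrictDerivAt t₀ s).hasDerivAt
      · exact ((A y s).le_opNorm _).trans
          (mul_le_mul (hK s (hmem s hs)) (dy_bound' hK0 hK n (hmem s hs)) (norm_nonneg _) hK0)
    rw [← (A y t).map_tsum (hsum y t)] at hd
    have e : (fun s => ∑' n, dy A t₀ x₀ n y s) = fun s => x₀ + ∑' n, dy A t₀ x₀ (n + 1) y s :=
      funext fun s => hx y s
    show HasDerivAt (fun s => ∑' n, dy A t₀ x₀ n y s) _ t
    rw [e]
    exact hd.const_add x₀
  · refine continuous_iff_continuousAt.2 fun y₀ => ?_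
    obtain ⟨K, hK0, hK⟩ := exists_bound hA y₀ t₀ |t - t₀|
    refine ContinuousOn.continuousAt ?_ hK
    exact continuousOn_tsum
      (fun n => ((dy_cont hA n).comp (continuous_id.prodMk continuous_const)).continuousOn)
      (summable_bd ‖x₀‖ K |t - t₀|) fun n y hy => dy_bound' hK0 hy n le_rfl

/-- Uniqueness on a compact interval. -/
theorem unique_Icc {A : ℝ → E →L[ℝ] E} {a b : ℝ} (hA : ContinuousOn A (Icc a b)) {f g : ℝ → E}
    (hf : ∀ t ∈ Icc a b, HasDerivAt f (A t (f t)) t)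
    (hg : ∀ t ∈ Icc a b, HasDerivAt g (A t (g t)) t) {c : ℝ} (hc : c ∈ Icc a b)
    (h0 : f c = g c) : ∀ t ∈ Icc a b, f t = g t := by
  obtain ⟨K, hK⟩ := isCompact_Icc.exists_bound_of_continuousOn hA
  have hL : ∀ t ∈ Icc a b, LipschitzOnWith K.toNNReal (A t) univ := fun t ht =>
    ((A t).lipschitz.weaken (by
      rw [← NNReal.coe_le_coe, coe_nnnorm]
      exact (hK t ht).trans (Real.le_coe_toNNReal K))).lipschitzOnWith
  intro t ht
  rcases le_total c t with h | h
  · have hs : Icc c b ⊆ Icc a b := Icc_subset_Icc_left hc.1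
    exact ODE_solution_unique_of_mem_Icc_right (v := fun t x => A t x) (s := fun _ => univ)
      (fun t ht => hL t (hs (Ico_subset_Icc_self ht)))
      (fun t ht => (hf t (hs ht)).continuousAt.continuousWithinAt)
      (fun t ht => (hf t (hs (Ico_subset_Icc_self ht))).hasDerivWithinAt) (fun _ _ => trivial)
      (fun t ht => (hg t (hs ht)).continuousAt.continuousWithinAt)
      (fun t ht => (hg t (hs (Ico_subset_Icc_self ht))).hasDerivWithinAt) (fun _ _ => trivial)
      h0 ⟨h, ht.2⟩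
  · have hs : Icc a c ⊆ Icc a b := Icc_subset_Icc_right hc.2
    exact ODE_solution_unique_of_mem_Icc_left (v := fun t x => A t x) (s := fun _ => univ)
      (fun t ht => hL t (hs (Ioc_subset_Icc_self ht)))
      (fun t ht => (hf t (hs ht)).continuousAt.continuousWithinAt)
      (fun t ht => (hf t (hs (Ioc_subset_Icc_self ht))).hasDerivWithinAt) (fun _ _ => trivial)
      (fun t ht => (hg t (hs ht)).continuousAt.continuousWithinAt)
      (fun t ht => (hg t (hs (Ioc_subset_Icc_self ht))).hasDerivWithinAt) (fun _ _ => trivial)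
      h0 ⟨ht.1, h⟩

/-- Solutions of smooth equations are smooth. -/
theorem contDiff_of_ode {f : ℝ × E → E} (hf : ContDiff ℝ ∞ f) {x : ℝ → E}
    (hx : ∀ t, HasDerivAt x (f (t, x t)) t) : ContDiff ℝ ∞ x := by
  have hd : Differentiable ℝ x := fun t => (hx t).differentiableAt
  have he : deriv x = fun t => f (t, x t) := funext fun t => (hx t).deriv
  rw [contDiff_infty]
  intro n
  induction n with
  | zero => exact contDiff_zero.2 hd.continuous
  | succ n ih =>
    rw [Nat.cast_succ, contDiff_succ_iff_deriv]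
    refine ⟨hd, by simp, ?_⟩
    rw [he]
    exact (hf.of_le (by exact_mod_cast le_top)).comp (contDiff_id.prodMk ih)

end Crest.Agent.Lib.LinODE
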